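import Vale.Agent.P305.R2.H434.DefectDefs
import Vale.Agent.P305.R2.H52.Pair

/-! The packing number and the defect. -/

set_option autoImplicit false

namespace Vale.Agent.P305.H434

open Vale.Agent.P305 Vale.Agent.P305.H529 Vale.Agent.P305.H287 Vale.Agent.P305.H52

variable {n : ℕ}

theorem IsMeeting.at {G : SimpleGraph (Fin n)} {U X : Set (Fin n)} {S : Fin n → Set ℂ} {k : ℕ}
    {a b : Fin k → Fin n} (h : IsMeeting G U X S k a b) : IsInducedMatchingAt G U k a b :=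
  ⟨fun i => ⟨(h.1 i).1, (h.1 i).2.2.1⟩, h.2⟩

theorem IsMeeting.le {G : SimpleGraph (Fin n)} {U X : Set (Fin n)} {S : Fin n → Set ℂ} {k : ℕ}
    {a b : Fin k → Fin n} (h : IsMeeting G U X S k a b) : k ≤ meeting G U X S :=
  le_csSup ⟨inducedMatchingAt G U, fun _ ⟨_, _, h⟩ => h.at.le⟩ ⟨a, b, h⟩

theorem meeting_le {G : SimpleGraph (Fin n)} {U X : Set (Fin n)} {S : Fin n → Set ℂ} {c : ℕ}
    (h : ∀ (k : ℕ) (a b : Fin k → Fin n), IsMeeting G U X S k a b → k ≤ c) :
    meeting G U X S ≤ c :=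
  csSup_le ⟨0, fun i => i.elim0, fun i => i.elim0, fun i => i.elim0, fun i => i.elim0⟩
    fun k ⟨a, b, hab⟩ => h k a b hab

/-- Two members without meeting edges give a wild pair. -/
theorem wild_of_pair (G : SimpleGraph (Fin n)) (U X : Set (Fin n)) (S : Fin n → Set ℂ)
    (hJ : ∀ v, Jo (S v)) (A B : Set (Fin n)) (hAU : A ⊆ U) (hBU : B ⊆ U)
    (hAB : ∀ u ∈ A, ∀ v ∈ B, u ≠ v ∧ ¬ G.Adj u v)
    (hA : ¬ (G.induce A).IsBipartite) (hB : ¬ (G.induce B).IsBipartite)
    (hdA : ∀ u ∈ A, ∀ v ∈ A, G.Adj u v → u ∉ X ∧ Disjoint (S u) (S v))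
    (hdB : ∀ u ∈ B, ∀ v ∈ B, G.Adj u v → u ∉ X ∧ Disjoint (S u) (S v)) :
    ∃ u ∈ A, ∃ v ∈ B, (u, v) ∈ wild G U X S := by
  obtain ⟨s, _, a, hs, haA, haa⟩ := exists_cyclic G A hA
  obtain ⟨t, _, b, ht, hbB, hbb⟩ := exists_cyclic G B hB
  have h1 : ∃ i j, Disjoint (S (a i)) (S (b j)) ∨ ¬ Tame (S (a i)) (S (b j)) := by
    by_cases hm : ∀ i j, (S (a i) ∩ S (b j)).Nonempty
    · obtain ⟨i, j, hij⟩ := torus hs ht (fun i => S (a i)) (fun j => S (b j)) (fun i => hJ _)
        (fun j => hJ _) (fun i => (hdA _ (haA _) _ (haA _) (haa i)).2)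
        (fun j => (hdB _ (hbB _) _ (hbB _) (hbb j)).2) hm
      exact ⟨i, j, Or.inr fun h => hij h.good⟩
    · push Not at hm
      obtain ⟨i, j, hij⟩ := hm
      exact ⟨i, j, Or.inl (Set.disjoint_iff_inter_eq_empty.2 hij)⟩
  obtain ⟨i, j, hij⟩ := h1
  exact ⟨a i, haA i, b j, hbB j, ⟨hAU (haA i), (hdA _ (haA _) _ (haA _) (haa i)).1⟩,
    ⟨hBU (hbB j), (hdB _ (hbB _) _ (hbB _) (hbb j)).1⟩, (hAB _ (haA i) _ (hbB j)).1,
    (hAB _ (haA i) _ (hbB j)).2, hij⟩

/-- The main counting. -/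
theorem wild_count (G : SimpleGraph (Fin n)) (U X : Set (Fin n)) (S : Fin n → Set ℂ)
    (hJ : ∀ v, Jo (S v)) :
    (oddPackingIn G U - meeting G U X S) * (oddPackingIn G U - meeting G U X S - 1) ≤
      (wild G U X S).ncard := by
  classical
  obtain ⟨A, hAU, hA⟩ := exists_oddPackingIn G U
  revert A
  generalize oddPackingIn G U = k
  intro A hAU hA
  let F : Finset (Fin k) := Finset.univ.filter fun i =>
    ∃ u ∈ A i, ∃ v ∈ A i, G.Adj u v ∧ (u ∈ X ∨ v ∈ X ∨ (S u ∩ S v).Nonempty)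
  have hF : F.card ≤ meeting G U X S := by
    have h1 : ∀ i : F, ∃ u ∈ A i, ∃ v ∈ A i,
        G.Adj u v ∧ (u ∈ X ∨ v ∈ X ∨ (S u ∩ S v).Nonempty) := by
      rintro ⟨i, hi⟩
      exact (Finset.mem_filter.1 hi).2
    choose f hf g hg hfg using h1
    let e := F.equivFin
    refine IsMeeting.le (a := fun i => f (e.symm i)) (b := fun i => g (e.symm i))
      ⟨fun i => ⟨hAU _ (hf _), hAU _ (hg _), hfg _⟩, fun i j hij u hu v hv => ?_⟩
    have hne : ((e.symm i : F) : Fin k) ≠ (e.symm j : F) :=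
      fun h => hij (e.symm.injective (Subtype.ext h))
    have hu' : u ∈ A (e.symm i) := by
      rcases hu with rfl | hu
      · exact hf _
      · rw [Set.mem_singleton_iff] at hu
        subst hu
        exact hg _
    have hv' : v ∈ A (e.symm j) := by
      rcases hv with rfl | hv
      · exact hf _
      · rw [Set.mem_singleton_iff] at hv
        subst hv
        exact hg _
    exact hA.2 _ _ hne u hu' v hv'
  have hdis : ∀ i ∈ Fᶜ, ∀ u ∈ A i, ∀ v ∈ A i, G.Adj u v → u ∉ X ∧ Disjoint (S u) (S v) := by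
    intro i hi u hu v hv huv
    rw [Finset.mem_compl] at hi
    constructor
    · intro hx
      exact hi (Finset.mem_filter.2 ⟨Finset.mem_univ _, u, hu, v, hv, huv, Or.inl hx⟩)
    · by_contra h
      exact hi (Finset.mem_filter.2 ⟨Finset.mem_univ _, u, hu, v, hv, huv,
        Or.inr (Or.inr (Set.not_disjoint_iff_nonempty_inter.1 h))⟩)
  have h1 : ∀ p : (Fᶜ).offDiag, ∃ u v : Fin n, u ∈ A p.1.1 ∧ v ∈ A p.1.2 ∧
      (u, v) ∈ wild G U X S := by
    rintro ⟨⟨i, j⟩, hp⟩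
    obtain ⟨hi, hj, hij⟩ := Finset.mem_offDiag.1 hp
    obtain ⟨u, hu, v, hv, huv⟩ := wild_of_pair G U X S hJ (A i) (A j) (hAU i) (hAU j)
      (hA.2 i j hij) (hA.1 i) (hA.1 j) (hdis i hi) (hdis j hj)
    exact ⟨u, v, hu, hv, huv⟩
  choose f g hf hg hfg using h1
  have hone : ∀ i j : Fin k, ∀ u : Fin n, u ∈ A i → u ∈ A j → i = j := by
    intro i j u hi hj
    by_contra hne
    exact (hA.2 i j hne u hi u hj).1 rfl
  have hinj : Function.Injective fun p => (f p, g p) := by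
    intro p q hpq
    have e1 : f p = f q := congrArg Prod.fst hpq
    have e2 : g p = g q := congrArg Prod.snd hpq
    have e3 := hone _ _ _ (hf p) (e1 ▸ hf q)
    have e4 := hone _ _ _ (hg p) (e2 ▸ hg q)
    exact Subtype.ext (Prod.ext e3 e4)
  have hcard : (Finset.univ.image fun p => (f p, g p)).card = (Fᶜ).card * ((Fᶜ).card - 1) := by
    rw [Finset.card_image_of_injective _ hinj, Finset.card_univ, Fintype.card_coe,
      Finset.offDiag_card, Nat.mul_sub_one]
  have hle : (Fᶜ).card * ((Fᶜ).card - 1) ≤ (wild G U X S).ncard := by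
    rw [← hcard, ← Set.ncard_coe_finset]
    refine Set.ncard_le_ncard ?_ (Set.toFinite _)
    intro p hp
    simp only [Finset.coe_image, Finset.coe_univ, Set.image_univ, Set.mem_range] at hp
    obtain ⟨q, rfl⟩ := hp
    exact hfg q
  have hc := Finset.card_add_card_compl F
  rw [Fintype.card_fin] at hc
  exact (Nat.mul_le_mul (by omega) (by omega)).trans hle

theorem packing_le_of (G : SimpleGraph (Fin n)) (U X : Set (Fin n)) (S : Fin n → Set ℂ)
    (hJ : ∀ v, Jo (S v)) :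
    oddPackingIn G U ≤ meeting G U X S + Nat.sqrt (wild G U X S).ncard + 1 := by
  have h := wild_count G U X S hJ
  have h1 : oddPackingIn G U - meeting G U X S - 1 ≤ Nat.sqrt (wild G U X S).ncard := by
    rw [Nat.le_sqrt]
    exact (Nat.mul_le_mul_right _ (Nat.sub_le _ _)).trans h
  omega

theorem jo_univ : Jo (Set.univ : Set ℂ) := fun x _ y _ =>
  (convex_univ.isPathConnected ⟨0, trivial⟩).joinedIn x trivial y trivial

theorem jo_empty : Jo (∅ : Set ℂ) := fun _ hx => absurd hx (by simp)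

theorem defectIn_spec (G : SimpleGraph (Fin n)) (U : Set (Fin n)) :
    ∃ (X : Set (Fin n)) (S : Fin n → Set ℂ), (∀ v, Jo (S v)) ∧
      defectIn G U = meeting G U X S + Nat.sqrt (wild G U X S).ncard :=
  Nat.sInf_mem (s := {x | ∃ (X : Set (Fin n)) (S : Fin n → Set ℂ), (∀ v, Jo (S v)) ∧
    x = meeting G U X S + Nat.sqrt (wild G U X S).ncard})
    ⟨_, ∅, fun _ => Set.univ, fun _ => jo_univ, rfl⟩

theorem defectIn_le {G : SimpleGraph (Fin n)} {U : Set (Fin n)} (X : Set (Fin n))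
    {S : Fin n → Set ℂ} (hJ : ∀ v, Jo (S v)) :
    defectIn G U ≤ meeting G U X S + Nat.sqrt (wild G U X S).ncard :=
  Nat.sInf_le ⟨X, S, hJ, rfl⟩

theorem packing_le_defect (G : SimpleGraph (Fin n)) (U : Set (Fin n)) :
    oddPackingIn G U ≤ defectIn G U + 1 := by
  obtain ⟨X, S, hJ, h⟩ := defectIn_spec G U
  rw [h]
  exact packing_le_of G U X S hJ

theorem searches_le_defect (G : SimpleGraph (Fin n)) : searches G ≤ defect G := by
  classical
  refine (searches_le_surplus G).trans ?_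
  unfold surplus defect
  refine Finset.sum_le_sum fun K _ => ?_
  have e1 := matchedIn_le_assignedIn G K.supp
  have e2 := packing_le_defect G K.supp
  omega

/-- Vertex deletions and edge changes: `k` counts an induced matching of edges of `G` that meet `X`
or are not edges of `H`, and `c` counts the ordered pairs of different vertices of `U \ X` that are
adjacent in `H` and not in `G`. -/
theorem defect_edit (G H : SimpleGraph (Fin n)) (U X : Set (Fin n))
    (hH : IsCoPseudo (H.induce (U \ X))) (k : ℕ)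
    (hk : ∀ (m : ℕ) (a b : Fin m → Fin n), IsInducedMatchingAt G U m a b → (∀ i, b i ∈ U) →
      (∀ i, a i ∈ X ∨ b i ∈ X ∨ ¬ H.Adj (a i) (b i)) → m ≤ k) :
    defectIn G U ≤ k + Nat.sqrt {p : Fin n × Fin n | p.1 ∈ U \ X ∧ p.2 ∈ U \ X ∧
      H.Adj p.1 p.2 ∧ ¬ G.Adj p.1 p.2}.ncard := by
  classical
  obtain ⟨F, hF, ht, hadj⟩ := hH
  let S : Fin n → Set ℂ := fun v => if h : v ∈ U \ X then F ⟨v, h⟩ else ∅
  have hS : ∀ v (h : v ∈ U \ X), S v = F ⟨v, h⟩ := fun v h => dif_pos h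
  have hJ : ∀ v, Jo (S v) := by
    intro v
    by_cases h : v ∈ U \ X
    · rw [hS v h]
      exact hF _
    · rw [show S v = ∅ from dif_neg h]
      exact jo_empty
  refine (defectIn_le X hJ).trans (Nat.add_le_add ?_ (Nat.sqrt_le_sqrt ?_))
  · refine meeting_le fun m a b hab => hk m a b hab.at (fun i => (hab.1 i).2.1) fun i => ?_
    obtain ⟨h1, h2, h3, h4⟩ := hab.1 i
    by_cases ha : a i ∈ X
    · exact Or.inl ha
    by_cases hb : b i ∈ X
    · exact Or.inr (Or.inl hb)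
    refine Or.inr (Or.inr fun hH => ?_)
    rcases h4 with h4 | h4 | h4
    · exact ha h4
    · exact hb h4
    · rw [hS _ ⟨h1, ha⟩, hS _ ⟨h2, hb⟩] at h4
      have h5 := (hadj ⟨a i, h1, ha⟩ ⟨b i, h2, hb⟩
        (fun e => h3.ne (congrArg Subtype.val e))).1 hH
      exact Set.not_disjoint_iff_nonempty_inter.2 h4 h5
  · refine Set.ncard_le_ncard ?_ (Set.toFinite _)
    rintro ⟨u, v⟩ ⟨h1, h2, h3, h4, h5⟩
    refine ⟨h1, h2, ?_, h4⟩
    have h6 := hadj ⟨u, h1⟩ ⟨v, h2⟩ (fun e => h3 (congrArg Subtype.val e))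
    simp only [] at h5
    rw [hS u h1, hS v h2] at h5
    by_contra hn
    have h7 : ¬ Disjoint (F ⟨u, h1⟩) (F ⟨v, h2⟩) := fun hd => hn (h6.2 hd)
    rcases h5 with h5 | h5
    · exact h7 h5
    · exact h5 (ht _ _ (fun e => h3 (congrArg Subtype.val e))
        (Set.not_disjoint_iff_nonempty_inter.1 h7))

theorem defectIn_copseudo (G : SimpleGraph (Fin n)) (U : Set (Fin n))
    (h : IsCoPseudo (G.induce U)) : defectIn G U = 0 := by
  have h1 := defect_edit G G U ∅ (by rwa [Set.sdiff_empty]) 0 (by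
    intro m a b hab _ hno
    by_contra hm
    rcases hno ⟨0, by omega⟩ with h | h | h
    · exact h
    · exact h
    · exact h (hab.1 _).2)
  have h2 : {p : Fin n × Fin n | p.1 ∈ U \ ∅ ∧ p.2 ∈ U \ ∅ ∧ G.Adj p.1 p.2 ∧
      ¬ G.Adj p.1 p.2} = ∅ := by
    ext p
    simp only [Set.mem_ofPred_eq, Set.mem_empty_iff_false, iff_false]
    rintro ⟨_, _, h3, h4⟩
    exact h4 h3
  rw [h2, Set.ncard_empty] at h1
  simpa using h1

theorem defect_eq_zero (G : SimpleGraph (Fin n))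
    (h : ∀ K : G.ConnectedComponent, IsCoPseudo (G.induce K.supp)) : defect G = 0 := by
  classical
  unfold defect
  exact Finset.sum_eq_zero fun K _ => defectIn_copseudo G _ (h K)

theorem defect_reduction (T : ℕ → ℕ → ℕ)
    (hT : ∀ n n' m m', n ≤ n' → m ≤ m' → T n m ≤ T n' m')
    (hP : ∃ P, Solves P (fun _ G => G.IsBipartite) (fun n G => T n G.edgeSet.ncard)) :
    ∃ P C, Solves P (fun _ _ => True) (fun n G =>
      C * (T (2 * n) (2 * G.edgeSet.ncard) +
        (defect G + 1) * ((Nat.log 2 n + 1) * (n + G.edgeSet.ncard + 1)))) := by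
  obtain ⟨P, C, h⟩ := comp_reduction T hT hP
  refine ⟨P, C, h.mono (fun _ _ _ => trivial) fun n G hG => ?_⟩
  exact Nat.mul_le_mul_left _ (Nat.add_le_add_left (Nat.mul_le_mul_right _
    (Nat.succ_le_succ (searches_le_defect G))) _)

theorem defect_almostLinear (hB : AlmostLinear fun _ G => G.IsBipartite) (κ : ℕ → ℕ)
    (hκ : ∀ ε : ℝ, 0 < ε → ∃ c : ℝ, ∀ N : ℕ, (κ N : ℝ) ≤ c * ((N : ℝ) + 1) ^ ε) :
    AlmostLinear fun n G => defect G ≤ κ (n + G.edgeSet.ncard) := by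
  obtain ⟨P, T, hP, hT⟩ := comp_almostLinear hB κ hκ
  exact ⟨P, T, hP.mono (fun _ G h => (searches_le_defect G).trans h) fun _ _ _ => le_rfl, hT⟩

end Vale.Agent.P305.H434
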