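import Vale.Agent.P305.R2.H434.Spec
import Mathlib.Tactic

/-! Row B2: interlaced directions at a common point of two convex sets give a crossing. -/

set_option autoImplicit false

namespace Vale.Agent.P305.H434

theorem mem_of_scale {a : Set (ℝ × ℝ)} (ha : Convex ℝ a) {v E : ℝ × ℝ} {c : ℝ} (hv : v ∈ a)
    (hc : 1 ≤ c) (h : v + c • E ∈ a) : v + E ∈ a := by
  have hc0 : 0 < c := by linarith
  have h1 : v + E = (1 - 1 / c) • v + (1 / c) • (v + c • E) := by
    rw [smul_add, smul_smul, one_div_mul_cancel hc0.ne', one_smul, sub_smul, one_smul]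
    abel
  rw [h1]
  exact ha hv h (by rw [sub_nonneg]; exact (div_le_one hc0).2 hc) (by positivity) (by ring)

theorem mem_of_line {a : Set (ℝ × ℝ)} (ha : Convex ℝ a) {v N S : ℝ × ℝ} {s : ℝ}
    (hN : v + N ∈ a) (hS : v + S ∈ a) (h0 : 0 ≤ s) (h1 : s ≤ 1) :
    v + ((1 - s) • N + s • S) ∈ a := by
  have h2 : v + ((1 - s) • N + s • S) = (1 - s) • (v + N) + s • (v + S) := by
    simp only [smul_add, sub_smul, one_smul]
    abel
  rw [h2]
  exact ha hN hS (by linarith) h0 (by ring)

/-- the segment from `N` to `S` crosses the ray of `E` before `E` -/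
theorem ray_lt {a : Set (ℝ × ℝ)} (ha : Convex ℝ a) {v E W : ℝ × ℝ} {α β α' β' : ℝ} (hv : v ∈ a)
    (hN : v + (α • E + β • W) ∈ a) (hS : v + (α' • E + β' • W) ∈ a) (hE : v + E ∉ a)
    (hβ : 0 < β) (hβ' : β' < 0) : β * α' - α * β' < β - β' := by
  by_contra hcon
  rw [not_lt] at hcon
  have hd : 0 < β - β' := by linarith
  have hd0 : β - β' ≠ 0 := hd.ne'
  apply hE
  apply mem_of_scale ha hv (c := (β * α' - α * β') / (β - β')) ((one_le_div hd).2 hcon)
  have h1 := mem_of_line ha hN hS (s := β / (β - β')) (by positivity)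
    ((div_le_one hd).2 (by linarith))
  have h2 : ((β * α' - α * β') / (β - β')) • E
      = (1 - β / (β - β')) • (α • E + β • W) + (β / (β - β')) • (α' • E + β' • W) := by
    ext
    · simp only [Prod.smul_fst, Prod.fst_add, smul_eq_mul]
      field_simp
      ring
    · simp only [Prod.smul_snd, Prod.snd_add, smul_eq_mul]
      field_simp
      ring
  rw [h2]
  exact h1

theorem not_disj_of {v N S E W : ℝ × ℝ} {t x y : ℝ} (h0 : 0 ≤ t) (h1 : t ≤ 1) (hx : 0 ≤ x)
    (hy : 0 ≤ y) (hxy : x + y = 1) (h : (1 - t) • N + t • S = x • E + y • W) :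
    ¬ Disjoint (segment ℝ (v + N) (v + S)) (segment ℝ (v + E) (v + W)) := by
  rw [Set.not_disjoint_iff]
  refine ⟨v + ((1 - t) • N + t • S), ⟨1 - t, t, by linarith, h0, by ring, ?_⟩,
    ⟨x, y, hx, hy, hxy, ?_⟩⟩
  · simp only [smul_add, sub_smul, one_smul]
    abel
  · rw [h]
    have h2 : v = (x + y) • v := by rw [hxy, one_smul]
    calc x • (v + E) + y • (v + W) = (x + y) • v + (x • E + y • W) := by
          simp only [smul_add, add_smul]
          abel
      _ = v + (x • E + y • W) := by rw [← h2]

theorem core {a b : Set (ℝ × ℝ)} (ha : Convex ℝ a) (hb : Convex ℝ b) {v E W : ℝ × ℝ}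
    {α β α' β' : ℝ} (hva : v ∈ a) (hvb : v ∈ b)
    (hN : v + (α • E + β • W) ∈ a) (hS : v + (α' • E + β' • W) ∈ a)
    (hE : v + E ∈ b) (hW : v + W ∈ b) (hNb : v + (α • E + β • W) ∉ b)
    (hEa : v + E ∉ a) (hWa : v + W ∉ a) (hα : 0 < α) (hβ : 0 < β) (h : α' < 0 ∨ β' < 0) :
    ¬ Disjoint (segment ℝ (v + (α • E + β • W)) (v + (α' • E + β' • W)))
      (segment ℝ (v + E) (v + W)) := by
  have r0 : 1 < α + β := by
    by_contra hcon
    rw [not_lt] at hcon
    apply hNb
    have h1 : v + (α • E + β • W)
        = (α + β) • ((α / (α + β)) • (v + E) + (β / (α + β)) • (v + W))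
          + (1 - (α + β)) • v := by
      have h3 : α + β ≠ 0 := by positivity
      rw [smul_add, smul_smul, smul_smul, mul_div_cancel₀ _ h3, mul_div_cancel₀ _ h3]
      simp only [smul_add, sub_smul, add_smul, one_smul]
      abel
    rw [h1]
    refine hb (hb hE hW (by positivity) (by positivity) ?_) hvb (by positivity) (by linarith)
      (by ring)
    rw [← add_div, div_self (by positivity)]
  have r1 : β' < 0 → β * α' - α * β' < β - β' := fun h1 => ray_lt ha hva hN hS hEa hβ h1
  have r2 : α' < 0 → α * β' - β * α' < α - α' := fun h1 => by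
    rw [add_comm (α • E)] at hN
    rw [add_comm (α' • E)] at hS
    exact ray_lt ha hva hN hS hWa hα h1
  have hg : α' + β' ≤ 1 := by
    by_contra hcon
    rw [not_le] at hcon
    rcases h with h1 | h1
    · have h2 := r2 h1
      nlinarith
    · have h2 := r1 h1
      nlinarith
  have hd : 0 < (α + β) - (α' + β') := by linarith
  have hd0 : (α + β) - (α' + β') ≠ 0 := hd.ne'
  have hx : 0 ≤ α - α' - (α * β' - β * α') := by
    by_cases h1 : α' < 0
    · have := r2 h1
      linarith
    · rw [not_lt] at h1
      nlinarith [mul_nonneg hα.le (sub_nonneg.2 hg), mul_nonneg h1 (sub_nonneg.2 r0.le)]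
  have hy : 0 ≤ β - β' - (β * α' - α * β') := by
    by_cases h1 : β' < 0
    · have := r1 h1
      linarith
    · rw [not_lt] at h1
      nlinarith [mul_nonneg hβ.le (sub_nonneg.2 hg), mul_nonneg h1 (sub_nonneg.2 r0.le)]
  refine not_disj_of (t := ((α + β) - 1) / ((α + β) - (α' + β')))
    (x := (α - α' - (α * β' - β * α')) / ((α + β) - (α' + β')))
    (y := (β - β' - (β * α' - α * β')) / ((α + β) - (α' + β')))
    (div_nonneg (by linarith) hd.le) ((div_le_one hd).2 (by linarith))
    (div_nonneg hx hd.le) (div_nonneg hy hd.le) ?_ ?_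
  · rw [← add_div, div_eq_one_iff_eq hd0]
    ring
  · ext
    · simp only [Prod.smul_fst, Prod.fst_add, smul_eq_mul]
      field_simp
      ring
    · simp only [Prod.smul_snd, Prod.snd_add, smul_eq_mul]
      field_simp
      ring

/-- coordinates in the basis `E`, `W` -/
theorem coord {E W : ℝ × ℝ} (h : det E W ≠ 0) (x : ℝ × ℝ) :
    x = (det x W / det E W) • E + (det E x / det E W) • W := by
  simp only [det] at *
  ext
  · simp only [Prod.smul_fst, Prod.fst_add, smul_eq_mul]
    rw [div_mul_eq_mul_div, div_mul_eq_mul_div, ← add_div, eq_div_iff h]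
    ring
  · simp only [Prod.smul_snd, Prod.snd_add, smul_eq_mul]
    rw [div_mul_eq_mul_div, div_mul_eq_mul_div, ← add_div, eq_div_iff h]
    ring

theorem det_swap (p q : ℝ × ℝ) : det p q = - det q p := by
  simp only [det]
  ring

/-- `E` and `W` in opposite directions -/
theorem flat {a : Set (ℝ × ℝ)} (ha : Convex ℝ a) {v E N W S : ℝ × ℝ} (hva : v ∈ a)
    (hN : v + N ∈ a) (hS : v + S ∈ a) (hEa : v + E ∉ a) (hWa : v + W ∉ a)
    (hd : det E W = 0) (h1 : 0 < det E N) (h2 : 0 < det N W) (h3 : det E S < 0) :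
    ¬ Disjoint (segment ℝ (v + N) (v + S)) (segment ℝ (v + E) (v + W)) := by
  have hE : E ≠ 0 := by
    rintro rfl
    simp [det] at h1
  obtain ⟨l, rfl⟩ : ∃ l : ℝ, W = l • E := by
    have hn : 0 < E.1 ^ 2 + E.2 ^ 2 := by
      by_contra hcon
      rw [not_lt] at hcon
      apply hE
      have e1 : E.1 ^ 2 = 0 := le_antisymm (by nlinarith [sq_nonneg E.2]) (sq_nonneg _)
      have e2 : E.2 ^ 2 = 0 := le_antisymm (by nlinarith [sq_nonneg E.1]) (sq_nonneg _)
      exact Prod.ext (by simpa using e1) (by simpa using e2)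
    refine ⟨(E.1 * W.1 + E.2 * W.2) / (E.1 ^ 2 + E.2 ^ 2), ?_⟩
    simp only [det] at hd
    ext
    · simp only [Prod.smul_fst, smul_eq_mul]
      field_simp
      linear_combination (-E.2) * hd
    · simp only [Prod.smul_snd, smul_eq_mul]
      field_simp
      linear_combination (E.1) * hd
  have hl : l < 0 := by
    by_contra hcon
    rw [not_lt] at hcon
    have e : det N (l • E) = - (l * det E N) := by
      simp only [det, Prod.smul_fst, Prod.smul_snd, smul_eq_mul]
      ring
    rw [e] at h2
    nlinarith [mul_nonneg hcon h1.le]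
  have hp : 0 < det E N - det E S := by linarith
  -- the point of the line
  have hpt : ∃ c : ℝ, (1 - det E N / (det E N - det E S)) • N
      + (det E N / (det E N - det E S)) • S = c • E := by
    have hn : 0 < E.1 ^ 2 + E.2 ^ 2 := by
      by_contra hcon
      rw [not_lt] at hcon
      apply hE
      have e1 : E.1 ^ 2 = 0 := le_antisymm (by nlinarith [sq_nonneg E.2]) (sq_nonneg _)
      have e2 : E.2 ^ 2 = 0 := le_antisymm (by nlinarith [sq_nonneg E.1]) (sq_nonneg _)
      exact Prod.ext (by simpa using e1) (by simpa using e2)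
    set p : ℝ × ℝ := (1 - det E N / (det E N - det E S)) • N
      + (det E N / (det E N - det E S)) • S with hpdef
    have hdp : det E p = 0 := by
      have e : det E p = (1 - det E N / (det E N - det E S)) * det E N
          + (det E N / (det E N - det E S)) * det E S := by
        rw [hpdef]
        simp only [det, Prod.smul_fst, Prod.smul_snd, Prod.fst_add, Prod.snd_add, smul_eq_mul]
        ring
      rw [e]
      have hp0 := hp.ne'
      field_simp
      ring
    refine ⟨(E.1 * p.1 + E.2 * p.2) / (E.1 ^ 2 + E.2 ^ 2), ?_⟩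
    simp only [det] at hdp
    ext
    · simp only [Prod.smul_fst, smul_eq_mul]
      field_simp
      linear_combination (-E.2) * hdp
    · simp only [Prod.smul_snd, smul_eq_mul]
      field_simp
      linear_combination (E.1) * hdp
  obtain ⟨c, hc⟩ := hpt
  have hs0 : 0 ≤ det E N / (det E N - det E S) := div_nonneg h1.le hp.le
  have hs1 : det E N / (det E N - det E S) ≤ 1 := (div_le_one hp).2 (by linarith)
  have hca : v + c • E ∈ a := by
    rw [← hc]
    exact mem_of_line ha hN hS hs0 hs1
  have hc1 : c < 1 := by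
    by_contra hcon
    rw [not_lt] at hcon
    exact hEa (mem_of_scale ha hva hcon hca)
  have hc2 : l < c := by
    by_contra hcon
    rw [not_lt] at hcon
    have e : c • E = (c / l) • (l • E) := by
      rw [smul_smul, div_mul_cancel₀ _ hl.ne]
    rw [e] at hca
    exact hWa (mem_of_scale ha hva ((one_le_div_of_neg hl).2 hcon) hca)
  have hl1 : 0 < 1 - l := by linarith
  refine not_disj_of (t := det E N / (det E N - det E S)) (x := (c - l) / (1 - l))
    (y := (1 - c) / (1 - l)) hs0 hs1 (div_nonneg (by linarith) hl1.le)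
    (div_nonneg (by linarith) hl1.le) ?_ ?_
  · rw [← add_div, div_eq_one_iff_eq hl1.ne']
    ring
  · rw [hc, smul_smul, ← add_smul]
    congr 1
    field_simp
    ring

theorem cross : StB2 := by
  intro a b v E N W S ha hb hva hvb hN hS hE hW hNb hSb hEa hWa hP hM hnc
  have hdis := hnc (v + N) ⟨hN, hNb⟩ (v + S) ⟨hS, hSb⟩ (v + E) ⟨hE, hEa⟩ (v + W) ⟨hW, hWa⟩
  have hsw := det_swap W E
  unfold CPos at hP
  unfold CNeg at hM
  rcases lt_trichotomy (det E W) 0 with hd | hd | hd
  · -- `S` is in the open cone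
    have hS' : det E S < 0 ∧ det S W < 0 := by
      rcases hM with h | h | h
      · exact h
      · exact absurd h.2 (by linarith)
      · exact absurd h.1 (by linarith)
    have hN' : 0 < det N W ∨ 0 < det E N := by
      rcases hP with h | h | h
      · exact Or.inl h.2
      · exact Or.inl h.1
      · exact Or.inr h.2
    rw [coord hd.ne N] at hN hNb hdis
    rw [coord hd.ne S] at hS hSb hdis
    rw [segment_symm ℝ (v + _) (v + ((det S W / det E W) • E + (det E S / det E W) • W))] at hdis
    refine core ha hb hva hvb hS hN hE hW hSb hEa hWa (div_pos_of_neg_of_neg hS'.2 hd)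
      (div_pos_of_neg_of_neg hS'.1 hd) ?_ hdis
    rcases hN' with h | h
    · exact Or.inl (div_neg_of_pos_of_neg h hd)
    · exact Or.inr (div_neg_of_pos_of_neg h hd)
  · have hN' : 0 < det E N ∧ 0 < det N W := by
      rcases hP with h | h | h
      · exact h
      · exact absurd h.2 (by linarith)
      · exact absurd h.1 (by linarith)
    have hS' : det E S < 0 := by
      rcases hM with h | h | h
      · exact h.1
      · exact absurd h.2 (by linarith)
      · exact h.2
    exact flat ha hva hN hS hEa hWa hd hN'.1 hN'.2 hS' hdis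
  · have hN' : 0 < det E N ∧ 0 < det N W := by
      rcases hP with h | h | h
      · exact h
      · exact absurd h.2 (by linarith)
      · exact absurd h.1 (by linarith)
    have hS' : det S W < 0 ∨ det E S < 0 := by
      rcases hM with h | h | h
      · exact Or.inl h.2
      · exact Or.inl h.1
      · exact Or.inr h.2
    rw [coord hd.ne' N] at hN hNb hdis
    rw [coord hd.ne' S] at hS hSb hdis
    refine core ha hb hva hvb hN hS hE hW hNb hEa hWa (div_pos hN'.2 hd)
      (div_pos hN'.1 hd) ?_ hdis
    rcases hS' with h | h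
    · exact Or.inl (div_neg_of_neg_of_pos h hd)
    · exact Or.inr (div_neg_of_neg_of_pos h hd)

end Vale.Agent.P305.H434
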