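import Vale.Agent.P305.R2.H52.Class
import Vale.Agent.P305.OddDefs
import Mathlib.Combinatorics.SimpleGraph.Connectivity.Connected
import Mathlib.Data.Nat.Sqrt
import Mathlib.Data.Set.Card

/-! How far a graph is from the disjointness graph of a family of pseudo-discs: definitions. -/

set_option autoImplicit false

namespace Vale.Agent.P305.H434

open Vale.Agent.P305.H52

variable {n : ℕ}

/-- `a i - b i` (`i < k`) are edges of `G[U]`, no two of which have a common endpoint or are joined
by an edge of `G`, and each of which has an endpoint in `X` or joins two vertices whose sets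
meet. -/
def IsMeeting (G : SimpleGraph (Fin n)) (U X : Set (Fin n)) (S : Fin n → Set ℂ) (k : ℕ)
    (a b : Fin k → Fin n) : Prop :=
  (∀ i, a i ∈ U ∧ b i ∈ U ∧ G.Adj (a i) (b i) ∧
    (a i ∈ X ∨ b i ∈ X ∨ (S (a i) ∩ S (b i)).Nonempty)) ∧
  ∀ i j, i ≠ j → ∀ u ∈ ({a i, b i} : Set (Fin n)), ∀ v ∈ ({a j, b j} : Set (Fin n)),
    u ≠ v ∧ ¬ G.Adj u v

/-- The largest size of an induced matching of `G[U]` consisting of edges that have an endpoint in
`X` or join two vertices whose sets meet. -/
noncomputable def meeting (G : SimpleGraph (Fin n)) (U X : Set (Fin n)) (S : Fin n → Set ℂ) : ℕ :=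
  sSup {k | ∃ a b : Fin k → Fin n, IsMeeting G U X S k a b}

/-- The ordered pairs of different non-adjacent vertices of `U \ X` whose sets are disjoint or not
`Tame`. -/
def wild (G : SimpleGraph (Fin n)) (U X : Set (Fin n)) (S : Fin n → Set ℂ) :
    Set (Fin n × Fin n) :=
  {p | p.1 ∈ U \ X ∧ p.2 ∈ U \ X ∧ p.1 ≠ p.2 ∧ ¬ G.Adj p.1 p.2 ∧
    (Disjoint (S p.1) (S p.2) ∨ ¬ Tame (S p.1) (S p.2))}

/-- The defect of `G[U]`: the smallest value of `k + ⌊√c⌋` over all vertex sets `X` and all families
`S` of path-connected sets of the plane, where `k` is the largest size of an induced matching of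
edges of `G[U]` that meet `X` or join two vertices whose sets meet, and `c` is the number of ordered
pairs of different non-adjacent vertices of `U \ X` whose sets are disjoint or not `Tame`. -/
noncomputable def defectIn (G : SimpleGraph (Fin n)) (U : Set (Fin n)) : ℕ :=
  sInf {x | ∃ (X : Set (Fin n)) (S : Fin n → Set ℂ), (∀ v, Jo (S v)) ∧
    x = meeting G U X S + Nat.sqrt (wild G U X S).ncard}

/-- The defect of `G`: the sum of the defects of its components. -/
noncomputable def defect (G : SimpleGraph (Fin n)) : ℕ :=
  open Classical in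
  ∑ K : G.ConnectedComponent, defectIn G K.supp

end Vale.Agent.P305.H434
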