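import Mathlib.Analysis.Convex.Basic
import Mathlib.Analysis.Convex.Topology
import Mathlib.Data.ZMod.Basic

/-! Convex sets in the plane that do not cross: definitions. -/

set_option autoImplicit false

namespace Vale.Agent.P305.H434

/-- Two sets in the plane do not cross: no segment with ends in `a \ b` meets a segment with ends
in `b \ a`. -/
def NonCrossing (a b : Set (ℝ × ℝ)) : Prop :=
  ∀ x ∈ a \ b, ∀ y ∈ a \ b, ∀ z ∈ b \ a, ∀ w ∈ b \ a,
    Disjoint (segment ℝ x y) (segment ℝ z w)

/-- determinant of two vectors -/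
def det (p q : ℝ × ℝ) : ℝ := p.1 * q.2 - p.2 * q.1

/-- the upper half plane, with the positive half axis -/
def Up (d : ℝ × ℝ) : Prop := 0 < d.2 ∨ (d.2 = 0 ∧ 0 < d.1)

/-- lexicographic order of points: `x` is below `y` -/
def Lo (x y : ℝ × ℝ) : Prop := Up (y - x)

/-- orientation of three points -/
def ori (p q x : ℝ × ℝ) : ℝ := det (q - p) (x - p)

open Classical in
/-- number (mod two) of times the short rotation from `-q` to `p` passes the reference direction -/
noncomputable def hh (p q : ℝ × ℝ) : ZMod 2 :=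
  if (Up p ∧ Up q ∧ 0 < det p q) ∨ (¬ Up p ∧ ¬ Up q ∧ det p q < 0) then 1 else 0

open Classical in
/-- bit of `Up` -/
noncomputable def ub (p : ℝ × ℝ) : ZMod 2 := if Up p then 1 else 0

theorem up_add {p q : ℝ × ℝ} (hp : Up p) (hq : Up q) : Up (p + q) := by
  simp only [Up, Prod.fst_add, Prod.snd_add] at *
  rcases hp with hp | ⟨hp, hp'⟩ <;> rcases hq with hq | ⟨hq, hq'⟩
  · left; linarith
  · left; linarith
  · left; linarith
  · right; constructor <;> linarith

theorem up_smul {p : ℝ × ℝ} {c : ℝ} (hc : 0 < c) (hp : Up p) : Up (c • p) := by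
  simp only [Up, Prod.smul_fst, Prod.smul_snd, smul_eq_mul] at *
  rcases hp with hp | ⟨hp, hp'⟩
  · left; positivity
  · right; constructor
    · rw [hp, mul_zero]
    · positivity

theorem not_up_zero : ¬ Up 0 := by simp [Up]

theorem up_neg_of {p : ℝ × ℝ} (hp : p ≠ 0) (h : ¬ Up p) : Up (-p) := by
  simp only [Up, Prod.fst_neg, Prod.snd_neg] at *
  push Not at h
  rcases lt_trichotomy p.2 0 with h1 | h1 | h1
  · left; linarith
  · right
    refine ⟨by linarith, ?_⟩
    have h2 := h.2 h1
    rcases lt_or_eq_of_le h2 with h3 | h3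
    · linarith
    · exact absurd (Prod.ext h3 h1) hp
  · exact absurd h1 (not_lt.2 h.1)

theorem not_up_neg {p : ℝ × ℝ} (h : Up p) : ¬ Up (-p) := by
  intro h2
  have := up_add h h2
  rw [add_neg_cancel] at this
  exact not_up_zero this

/-- same direction -/
def SameDir (p q : ℝ × ℝ) : Prop := ∃ c : ℝ, 0 < c ∧ q = c • p

/-- `x` is in the open sector counterclockwise from `e` to `w` -/
def CPos (e w x : ℝ × ℝ) : Prop :=
  (0 < det e x ∧ 0 < det x w) ∨ (0 < det x w ∧ 0 < det w e) ∨ (0 < det w e ∧ 0 < det e x)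

/-- `x` is in the open sector counterclockwise from `w` to `e` -/
def CNeg (e w x : ℝ × ℝ) : Prop :=
  (det e x < 0 ∧ det x w < 0) ∨ (det x w < 0 ∧ det w e < 0) ∨ (det w e < 0 ∧ det e x < 0)

end Vale.Agent.P305.H434
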