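import Vale.Agent.P305.R2.H434.Spec
import Mathlib.Tactic
import Mathlib.Data.ZMod.Basic

/-! Double counting: corners of the quadrilaterals against directions at the vertices. -/

set_option autoImplicit false

namespace Vale.Agent.P305.H434

theorem ub_add_neg {d : ℝ × ℝ} (hd : d ≠ 0) : ub d + ub (-d) = 1 := by
  classical
  unfold ub
  by_cases h : Up d
  · rw [if_pos h, if_neg (not_up_neg h), add_zero]
  · rw [if_neg h, if_pos (up_neg_of hd h), zero_add]

theorem not_sameDir {a b : Set (ℝ × ℝ)} {v X Y : ℝ × ℝ} (ha : Convex ℝ a) (hb : Convex ℝ b)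
    (hva : v ∈ a) (hvb : v ∈ b) (hX : v + X ∈ a) (hX' : v + X ∉ b) (hY : v + Y ∈ b)
    (hY' : v + Y ∉ a) : ¬ SameDir X Y := by
  rintro ⟨c, hc, rfl⟩
  rcases le_total c 1 with h | h
  · apply hY'
    have h1 : v + c • X = (1 - c) • v + c • (v + X) := by module
    rw [h1]
    exact ha hva hX (by linarith) hc.le (by ring)
  · apply hX'
    have h2 : c⁻¹ • (c • X) = X := by rw [smul_smul, inv_mul_cancel₀ hc.ne', one_smul]
    have h1 : v + X = (1 - c⁻¹) • v + c⁻¹ • (v + c • X) := by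
      rw [smul_add, h2]; module
    rw [h1]
    have h3 : c⁻¹ ≤ 1 := inv_le_one_of_one_le₀ h
    exact hb hvb hY (by linarith) (inv_pos.2 hc).le (by ring)

theorem sum_shift_left {s t : ℕ} [NeZero s] [NeZero t] (F : ZMod s → ZMod t → ZMod 2) :
    ∑ i, ∑ j, F (i + 1) j = ∑ i, ∑ j, F i j :=
  Equiv.sum_comp (Equiv.addRight (1 : ZMod s)) (fun i => ∑ j, F i j)

theorem sum_shift_right {s t : ℕ} [NeZero s] [NeZero t] (F : ZMod s → ZMod t → ZMod 2) :
    ∑ i, ∑ j, F i (j + 1) = ∑ i, ∑ j, F i j :=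
  Finset.sum_congr rfl fun i _ => Equiv.sum_comp (Equiv.addRight (1 : ZMod t)) (fun j => F i j)

theorem sum_one {s t : ℕ} [NeZero s] [NeZero t] (hs : Odd s) (ht : Odd t)
    (F : ZMod s → ZMod t → ZMod 2) (h : ∀ i j, F i j = 1) : ∑ i, ∑ j, F i j = 1 := by
  have h1 : ∑ i, ∑ j, F i j = ∑ _i : ZMod s, ∑ _j : ZMod t, (1 : ZMod 2) :=
    Finset.sum_congr rfl fun i _ => Finset.sum_congr rfl fun j _ => h i j
  rw [h1]
  simp only [Finset.sum_const, Finset.card_univ, ZMod.card, nsmul_eq_mul, mul_one]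
  have hs' : (s : ZMod 2) = 1 := by
    obtain ⟨k, rfl⟩ := hs
    push_cast
    have : (2 : ZMod 2) = 0 := rfl
    rw [this, zero_mul, zero_add]
  have ht' : (t : ZMod 2) = 1 := by
    obtain ⟨k, rfl⟩ := ht
    push_cast
    have : (2 : ZMod 2) = 0 := rfl
    rw [this, zero_mul, zero_add]
  rw [hs', ht', one_mul]

/-- Module D with the vertex statement in one piece (`StB` of helper136, written out). -/
theorem main_core (hA : StA)
    (hB : ∀ (a b : Set (ℝ × ℝ)) (v E N W S : ℝ × ℝ), Convex ℝ a → Convex ℝ b →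
      v ∈ a → v ∈ b → v + N ∈ a → v + S ∈ a → v + E ∈ b → v + W ∈ b →
      v + N ∉ b → v + S ∉ b → v + E ∉ a → v + W ∉ a →
      ub E + ub N + ub W + ub S + (hh E N + hh N W + hh W S + hh S E) = 1 →
      ¬ NonCrossing a b) : StD := by
  intro s t _ _ hs ht A B cA cB dA dB hne
  classical
  choose q hq using hne
  have dA' : ∀ i, Disjoint (A i) (A (i - 1)) := fun i => by
    have := dA (i - 1)
    rw [sub_add_cancel] at this
    exact this.symm
  have dB' : ∀ j, Disjoint (B j) (B (j - 1)) := fun j => by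
    have := dB (j - 1)
    rw [sub_add_cancel] at this
    exact this.symm
  set E : ZMod s → ZMod t → ℝ × ℝ := fun i j => q (i + 1) j - q i j with hE
  set W : ZMod s → ZMod t → ℝ × ℝ := fun i j => q (i - 1) j - q i j with hW
  set N : ZMod s → ZMod t → ℝ × ℝ := fun i j => q i (j + 1) - q i j with hN
  set S : ZMod s → ZMod t → ℝ × ℝ := fun i j => q i (j - 1) - q i j with hS
  have vE : ∀ i j, q i j + E i j = q (i + 1) j := fun i j => by rw [hE]; exact add_sub_cancel _ _
  have vW : ∀ i j, q i j + W i j = q (i - 1) j := fun i j => by rw [hW]; exact add_sub_cancel _ _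
  have vN : ∀ i j, q i j + N i j = q i (j + 1) := fun i j => by rw [hN]; exact add_sub_cancel _ _
  have vS : ∀ i j, q i j + S i j = q i (j - 1) := fun i j => by rw [hS]; exact add_sub_cancel _ _
  have WE : ∀ i j, W (i + 1) j = -E i j := fun i j => by
    simp only [hW, hE, add_sub_cancel_right, neg_sub]
  have SN : ∀ i j, S i (j + 1) = -N i j := fun i j => by
    simp only [hS, hN, add_sub_cancel_right, neg_sub]
  -- membership
  have eb : ∀ i j, q i j + E i j ∈ B j := fun i j => by rw [vE]; exact (hq _ _).2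
  have wb : ∀ i j, q i j + W i j ∈ B j := fun i j => by rw [vW]; exact (hq _ _).2
  have na : ∀ i j, q i j + N i j ∈ A i := fun i j => by rw [vN]; exact (hq _ _).1
  have sa : ∀ i j, q i j + S i j ∈ A i := fun i j => by rw [vS]; exact (hq _ _).1
  have ea : ∀ i j, q i j + E i j ∉ A i := fun i j h => by
    rw [vE] at h
    exact Set.disjoint_left.1 (dA i) h (hq _ _).1
  have wa : ∀ i j, q i j + W i j ∉ A i := fun i j h => by
    rw [vW] at h
    exact Set.disjoint_left.1 (dA' i) h (hq _ _).1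
  have nb : ∀ i j, q i j + N i j ∉ B j := fun i j h => by
    rw [vN] at h
    exact Set.disjoint_left.1 (dB j) h (hq _ _).2
  have sb : ∀ i j, q i j + S i j ∉ B j := fun i j h => by
    rw [vS] at h
    exact Set.disjoint_left.1 (dB' j) h (hq _ _).2
  have ne_of : ∀ (v X : ℝ × ℝ) (c : Set (ℝ × ℝ)), v ∈ c → v + X ∉ c → X ≠ 0 := by
    intro v X c h1 h2 h3
    rw [h3, add_zero] at h2
    exact h2 h1
  have E0 : ∀ i j, E i j ≠ 0 := fun i j => ne_of _ _ _ (hq i j).1 (ea i j)
  have W0 : ∀ i j, W i j ≠ 0 := fun i j => ne_of _ _ _ (hq i j).1 (wa i j)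
  have N0 : ∀ i j, N i j ≠ 0 := fun i j => ne_of _ _ _ (hq i j).2 (nb i j)
  have S0 : ∀ i j, S i j ≠ 0 := fun i j => ne_of _ _ _ (hq i j).2 (sb i j)
  -- the quadrilaterals
  have quad : ∀ i j, hh (E i j) (N i j) + hh (N (i + 1) j) (W (i + 1) j) +
      hh (W (i + 1) (j + 1)) (S (i + 1) (j + 1)) + hh (S i (j + 1)) (E i (j + 1)) = 1 := by
    intro i j
    have h1 : Disjoint (segment ℝ (q i j) (q (i + 1) j))
        (segment ℝ (q i (j + 1)) (q (i + 1) (j + 1))) :=
      Disjoint.mono ((cB j).segment_subset (hq _ _).2 (hq _ _).2)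
        ((cB (j + 1)).segment_subset (hq _ _).2 (hq _ _).2) (dB j)
    have h2 : Disjoint (segment ℝ (q i j) (q i (j + 1)))
        (segment ℝ (q (i + 1) j) (q (i + 1) (j + 1))) :=
      Disjoint.mono ((cA i).segment_subset (hq _ _).1 (hq _ _).1)
        ((cA (i + 1)).segment_subset (hq _ _).1 (hq _ _).1) (dA i)
    have h3 := hA (q i j) (q (i + 1) j) (q (i + 1) (j + 1)) (q i (j + 1)) h1 h2
    simp only [hE, hN, hW, hS, add_sub_cancel_right]
    exact h3
  -- the sums
  have sHH : ∑ i, ∑ j, (hh (E i j) (N i j) + hh (N i j) (W i j) + hh (W i j) (S i j) +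
      hh (S i j) (E i j)) = 1 := by
    have h1 := sum_one hs ht _ quad
    simp only [Finset.sum_add_distrib] at h1 ⊢
    rw [sum_shift_left (fun i j => hh (N i j) (W i j)),
      sum_shift_left (fun i j => hh (W i (j + 1)) (S i (j + 1))),
      sum_shift_right (fun i j => hh (W i j) (S i j)),
      sum_shift_right (fun i j => hh (S i j) (E i j))] at h1
    exact h1
  have sEW : ∑ i, ∑ j, ub (E i j) + ∑ i, ∑ j, ub (W i j) = 1 := by
    rw [← sum_shift_left (fun i j => ub (W i j))]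
    simp only [WE]
    rw [← Finset.sum_add_distrib]
    simp only [← Finset.sum_add_distrib]
    exact sum_one hs ht _ fun i j => ub_add_neg (E0 i j)
  have sNS : ∑ i, ∑ j, ub (N i j) + ∑ i, ∑ j, ub (S i j) = 1 := by
    rw [← sum_shift_right (fun i j => ub (S i j))]
    simp only [SN]
    rw [← Finset.sum_add_distrib]
    simp only [← Finset.sum_add_distrib]
    exact sum_one hs ht _ fun i j => ub_add_neg (N0 i j)
  have total : ∑ i, ∑ j, (ub (E i j) + ub (N i j) + ub (W i j) + ub (S i j) +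
      (hh (E i j) (N i j) + hh (N i j) (W i j) + hh (W i j) (S i j) + hh (S i j) (E i j))) = 1 := by
    have h1 : ∑ i, ∑ j, (ub (E i j) + ub (N i j) + ub (W i j) + ub (S i j) +
      (hh (E i j) (N i j) + hh (N i j) (W i j) + hh (W i j) (S i j) + hh (S i j) (E i j))) =
      (∑ i, ∑ j, ub (E i j) + ∑ i, ∑ j, ub (W i j)) +
      (∑ i, ∑ j, ub (N i j) + ∑ i, ∑ j, ub (S i j)) +
      ∑ i, ∑ j, (hh (E i j) (N i j) + hh (N i j) (W i j) + hh (W i j) (S i j) +
      hh (S i j) (E i j)) := by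
      simp only [Finset.sum_add_distrib]
      ring
    rw [h1, sHH, sEW, sNS]
    rfl
  have hex : ∃ i j, ub (E i j) + ub (N i j) + ub (W i j) + ub (S i j) +
      (hh (E i j) (N i j) + hh (N i j) (W i j) + hh (W i j) (S i j) + hh (S i j) (E i j)) = 1 := by
    by_contra hcon
    push Not at hcon
    have hz : ∀ x : ZMod 2, x ≠ 1 → x = 0 := by decide
    rw [Finset.sum_eq_zero fun i _ => Finset.sum_eq_zero fun j _ => hz _ (hcon i j)] at total
    exact absurd total (by decide)
  obtain ⟨i, j, hij⟩ := hex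
  refine ⟨i, j, ?_⟩
  have qa := (hq i j).1
  have qb := (hq i j).2
  exact hB (A i) (B j) (q i j) _ _ _ _ (cA i) (cB j) qa qb (na i j) (sa i j) (eb i j) (wb i j)
    (nb i j) (sb i j) (ea i j) (wa i j) hij

theorem ne_zero_of {v X : ℝ × ℝ} {c : Set (ℝ × ℝ)} (h1 : v ∈ c) (h2 : v + X ∉ c) : X ≠ 0 := by
  intro h3
  rw [h3, add_zero] at h2
  exact h2 h1

theorem main_geom (hA : StA) (hB1 : StB1) (hB2 : StB2) : StD := by
  refine main_core hA fun a b v E N W S ca cb va vb na sa eb wb nb sb ea wa hp => ?_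
  rcases hB1 _ _ _ _ (ne_zero_of va ea) (ne_zero_of vb nb) (ne_zero_of va wa) (ne_zero_of vb sb)
    (not_sameDir cb ca vb va eb ea na nb) (not_sameDir cb ca vb va wb wa na nb)
    (not_sameDir cb ca vb va wb wa sa sb) (not_sameDir cb ca vb va eb ea sa sb) hp with
    ⟨h1, h2⟩ | ⟨h1, h2⟩
  · exact hB2 a b v E N W S ca cb va vb na sa eb wb nb sb ea wa h1 h2
  · exact hB2 a b v E S W N ca cb va vb sa na eb wb sb nb ea wa h2 h1

end Vale.Agent.P305.H434
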