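import Vale.Agent.P305.H529.Ball.Final
import Mathlib.Combinatorics.SimpleGraph.Extremal.Turan

/-! Stability of the packing number under vertex deletions, edge deletions and edge insertions. -/

set_option autoImplicit false

namespace Vale.Agent.P305.H434

open Vale.Agent.P305 Vale.Agent.P305.H529 Vale.Agent.P305.H287

variable {n : ℕ}

/-- The members of a packing that contain an edge of kind `P` are few. -/
theorem split_kind (G : SimpleGraph (Fin n)) (U : Set (Fin n)) (P : Fin n → Fin n → Prop) {k : ℕ}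
    (hk : ∀ (m : ℕ) (a b : Fin m → Fin n), IsInducedMatchingAt G U m a b → (∀ i, b i ∈ U) →
      (∀ i, P (a i) (b i)) → m ≤ k) {p : ℕ} (A : Fin p → Set (Fin n)) (hAU : ∀ i, A i ⊆ U)
    (hA : IsOddPacking G p A) : ∃ F : Finset (Fin p), F.card ≤ k ∧
      ∀ i ∉ F, ∀ u ∈ A i, ∀ v ∈ A i, G.Adj u v → ¬ P u v := by
  classical
  let F : Finset (Fin p) := Finset.univ.filter fun i => ∃ u ∈ A i, ∃ v ∈ A i, G.Adj u v ∧ P u v
  refine ⟨F, ?_, fun i hi u hu v hv huv hP => hi (Finset.mem_filter.2 ⟨Finset.mem_univ _, u, hu,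
    v, hv, huv, hP⟩)⟩
  have h1 : ∀ i : F, ∃ u ∈ A i, ∃ v ∈ A i, G.Adj u v ∧ P u v := by
    rintro ⟨i, hi⟩
    exact (Finset.mem_filter.1 hi).2
  choose f hf g hg hfg using h1
  let e := F.equivFin
  refine hk F.card (fun i => f (e.symm i)) (fun i => g (e.symm i))
    ⟨fun i => ⟨hAU _ (hf _), (hfg _).1⟩, fun i j hij u hu v hv => ?_⟩
    (fun i => hAU _ (hg _)) (fun i => (hfg _).2)
  have hne : ((e.symm i : F) : Fin p) ≠ (e.symm j : F) :=
    fun h => hij (e.symm.injective (Subtype.ext h))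
  have hu' : u ∈ A (e.symm i) := by
    rcases hu with rfl | hu
    · exact hf _
    · rw [Set.mem_singleton_iff] at hu
      subst hu
      exact hg _
  have hv' : v ∈ A (e.symm j) := by
    rcases hv with rfl | hv
    · exact hf _
    · rw [Set.mem_singleton_iff] at hv
      subst hv
      exact hg _
  exact hA.2 _ _ hne u hu' v hv'

/-- A graph on `N` vertices without an independent set of more than `q` vertices has at least
`N (N - q) / q` ordered pairs of adjacent vertices. -/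
theorem turan_pairs {V : Type} [Fintype V] [DecidableEq V] (R : SimpleGraph V)
    [DecidableRel R.Adj] (q : ℕ) (h : ∀ s : Finset V, (∀ u ∈ s, ∀ v ∈ s, ¬ R.Adj u v) → s.card ≤ q) :
    Fintype.card V * (Fintype.card V - q) ≤ q * ∑ v, R.degree v := by
  classical
  rcases Nat.eq_zero_or_pos q with rfl | hq
  · have : Fintype.card V = 0 := by
      by_contra hne
      obtain ⟨v⟩ : Nonempty V := Fintype.card_pos_iff.1 (Nat.pos_of_ne_zero hne)
      have := h {v} (by
        intro u hu w hw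
        rw [Finset.mem_singleton] at hu hw
        subst hu
        subst hw
        exact R.loopless.irrefl _)
      simp at this
    rw [this, zero_mul]
    exact Nat.zero_le _
  set N := Fintype.card V with hN
  have hfree : Rᶜ.CliqueFree (q + 1) := by
    intro s hs
    have h1 := h s (by
      intro u hu v hv huv
      have h2 := hs.isClique hu hv huv.ne
      rw [SimpleGraph.compl_adj] at h2
      exact h2.2 huv)
    have h2 := hs.card_eq
    omega
  have h1 : 2 * q * Rᶜ.edgeFinset.card ≤ (q - 1) * N ^ 2 := by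
    obtain ⟨M, _, maxM⟩ := SimpleGraph.exists_isTuranMaximal (V := V) hq
    have h2 : Rᶜ.edgeFinset.card ≤ M.edgeFinset.card := by
      convert! maxM.2 hfree
    have h3 := ((SimpleGraph.isTuranMaximal_iff_nonempty_iso_turanGraph hq).mp
      maxM).some.card_edgeFinset_eq
    rw [h3] at h2
    exact (Nat.mul_le_mul_left _ h2).trans SimpleGraph.mul_card_edgeFinset_turanGraph_le
  have h2 : ∑ v, Rᶜ.degree v = 2 * Rᶜ.edgeFinset.card := Rᶜ.sum_degrees_eq_twice_card_edges
  have h3 : ∑ v, Rᶜ.degree v + ∑ v, R.degree v = N * (N - 1) := by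
    rw [← Finset.sum_add_distrib]
    rw [Finset.sum_congr rfl (g := fun _ => N - 1)]
    · simp [hN]
    · intro v _
      rw [SimpleGraph.degree_compl]
      have := R.degree_lt_card_verts v
      omega
  rcases Nat.lt_or_ge N q with h4 | h4
  · rw [Nat.sub_eq_zero_of_le h4.le, mul_zero]
    exact Nat.zero_le _
  rcases Nat.eq_zero_or_pos N with h0 | h0
  · rw [h0, zero_mul]
    exact Nat.zero_le _
  zify [h4, h0, hq] at h1 h2 h3 ⊢
  nlinarith

theorem stability (G H : SimpleGraph (Fin n)) (U X : Set (Fin n)) (k : ℕ)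
    (hk : ∀ (m : ℕ) (a b : Fin m → Fin n), IsInducedMatchingAt G U m a b → (∀ i, b i ∈ U) →
      (∀ i, a i ∈ X ∨ b i ∈ X ∨ ¬ H.Adj (a i) (b i)) → m ≤ k) :
    (oddPackingIn G U - k) * (oddPackingIn G U - k - oddPackingIn H (U \ X)) ≤
      oddPackingIn H (U \ X) * {p : Fin n × Fin n | p.1 ∈ U \ X ∧ p.2 ∈ U \ X ∧
        H.Adj p.1 p.2 ∧ ¬ G.Adj p.1 p.2}.ncard := by
  classical
  obtain ⟨A, hAU, hA⟩ := exists_oddPackingIn G U
  revert A
  generalize oddPackingIn G U = p
  intro A hAU hA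
  obtain ⟨F, hF, hgood⟩ := split_kind G U (fun u v => u ∈ X ∨ v ∈ X ∨ ¬ H.Adj u v) hk A hAU hA
  let R : SimpleGraph (Fᶜ : Finset (Fin p)) :=
    { Adj := fun i j => i ≠ j ∧ ∃ u ∈ A i \ X, ∃ v ∈ A j \ X, H.Adj u v
      symm := ⟨fun i j ⟨h1, u, hu, v, hv, h2⟩ => ⟨h1.symm, v, hv, u, hu, h2.symm⟩⟩
      loopless := ⟨fun i h => h.1 rfl⟩ }
  have hnb : ∀ i ∉ F, ¬ (H.induce (A i \ X)).IsBipartite := by
    intro i hi hb
    refine hA.1 i (bip_of_no_edge G X _ ?_ ?_)
    · intro u hu v hv hx huv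
      exact hgood i hi u hu v hv huv (Or.inl hx)
    · obtain ⟨col⟩ := hb
      refine ⟨SimpleGraph.Coloring.mk (fun v => col v) (fun {u v} huv => col.valid ?_)⟩
      have huv' : G.Adj u.1 v.1 := huv
      by_contra hn
      exact hgood i hi u.1 u.2.1 v.1 v.2.1 huv' (Or.inr (Or.inr hn))
  have hind : ∀ s : Finset (Fᶜ : Finset (Fin p)), (∀ u ∈ s, ∀ v ∈ s, ¬ R.Adj u v) →
      s.card ≤ oddPackingIn H (U \ X) := by
    intro s hs
    let e := s.equivFin
    refine le_oddPackingIn (S := fun i => A (e.symm i).1.1 \ X) ?_ ⟨fun i => ?_,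
      fun i j hij u hu v hv => ?_⟩
    · intro i v hv
      exact ⟨hAU _ hv.1, hv.2⟩
    · exact hnb _ (Finset.mem_compl.1 (e.symm i).1.2)
    · have hne : (e.symm i).1 ≠ (e.symm j).1 := fun h => hij (e.symm.injective (Subtype.ext h))
      have hne' : ((e.symm i).1 : Fin p) ≠ ((e.symm j).1 : Fin p) := fun h => hne (Subtype.ext h)
      refine ⟨(hA.2 _ _ hne' u hu.1 v hv.1).1, fun huv => ?_⟩
      exact hs _ (e.symm i).2 _ (e.symm j).2 ⟨hne, u, hu, v, hv, huv⟩
  have h1 := turan_pairs R _ hind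
  rw [Fintype.card_coe] at h1
  have h2 : ∑ v, R.degree v ≤ {p : Fin n × Fin n | p.1 ∈ U \ X ∧ p.2 ∈ U \ X ∧
      H.Adj p.1 p.2 ∧ ¬ G.Adj p.1 p.2}.ncard := by
    have h3 : ∀ d : R.Dart, ∃ u ∈ A d.fst \ X, ∃ v ∈ A d.snd \ X, H.Adj u v := fun d => d.adj.2
    choose f hf g hg hfg using h3
    have hone : ∀ i j : Fin p, ∀ u : Fin n, u ∈ A i → u ∈ A j → i = j := by
      intro i j u hi hj
      by_contra hne
      exact (hA.2 i j hne u hi u hj).1 rfl
    have hinj : Function.Injective fun d => (f d, g d) := by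
      intro d d' hd
      have e1 : f d = f d' := congrArg Prod.fst hd
      have e2 : g d = g d' := congrArg Prod.snd hd
      have e3 := hone _ _ _ (hf d).1 (e1 ▸ (hf d').1)
      have e4 := hone _ _ _ (hg d).1 (e2 ▸ (hg d').1)
      exact SimpleGraph.Dart.ext _ _ (Prod.ext (Subtype.ext e3) (Subtype.ext e4))
    rw [R.sum_degrees_eq_twice_card_edges, ← R.dart_card_eq_twice_card_edges,
      ← Finset.card_univ, ← Finset.card_image_of_injective _ hinj, ← Set.ncard_coe_finset]
    refine Set.ncard_le_ncard ?_ (Set.toFinite _)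
    intro x hx
    simp only [Finset.coe_image, Finset.coe_univ, Set.image_univ, Set.mem_range] at hx
    obtain ⟨d, rfl⟩ := hx
    refine ⟨⟨hAU _ (hf d).1, (hf d).2⟩, ⟨hAU _ (hg d).1, (hg d).2⟩, hfg d, fun hadj => ?_⟩
    exact (hA.2 _ _ (fun h => d.adj.1 (Subtype.ext h)) _ (hf d).1 _ (hg d).1).2 hadj
  have hc := Finset.card_add_card_compl F
  rw [Fintype.card_fin] at hc
  exact (Nat.mul_le_mul (by omega) (by omega)).trans (h1.trans (Nat.mul_le_mul_left _ h2))

end Vale.Agent.P305.H434
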