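import Vale.Agent.P305.R2.H434.Count
import Vale.Agent.P305.R2.H434.Stability

/-! Matching in graphs that are near graphs of small packing number. -/

set_option autoImplicit false

namespace Vale.Agent.P305.H434

open Vale.Agent.P305 Vale.Agent.P305.H529 Vale.Agent.P305.H287 Vale.Agent.P305.H52

variable {n : ℕ}

/-- The bound `p_G ≤ k + q + √(q c)`. -/
theorem near_bound (G H : SimpleGraph (Fin n)) (U X : Set (Fin n)) (k : ℕ)
    (hk : ∀ (m : ℕ) (a b : Fin m → Fin n), IsInducedMatchingAt G U m a b → (∀ i, b i ∈ U) →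
      (∀ i, a i ∈ X ∨ b i ∈ X ∨ ¬ H.Adj (a i) (b i)) → m ≤ k) :
    oddPackingIn G U ≤ k + oddPackingIn H (U \ X) + Nat.sqrt (oddPackingIn H (U \ X) *
      {p : Fin n × Fin n | p.1 ∈ U \ X ∧ p.2 ∈ U \ X ∧ H.Adj p.1 p.2 ∧ ¬ G.Adj p.1 p.2}.ncard) := by
  have h := stability G H U X k hk
  have h1 : oddPackingIn G U - k - oddPackingIn H (U \ X) ≤ Nat.sqrt (oddPackingIn H (U \ X) *
      {p : Fin n × Fin n | p.1 ∈ U \ X ∧ p.2 ∈ U \ X ∧ H.Adj p.1 p.2 ∧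
        ¬ G.Adj p.1 p.2}.ncard) := by
    rw [Nat.le_sqrt]
    exact (Nat.mul_le_mul_right _ (Nat.sub_le _ _)).trans h
  omega

/-- Almost-linear time for the graphs near a graph of subpolynomial packing number. -/
theorem edit_almostLinear (hB : AlmostLinear fun _ G => G.IsBipartite) (κ : ℕ → ℕ)
    (hκ : ∀ ε : ℝ, 0 < ε → ∃ c : ℝ, ∀ N : ℕ, (κ N : ℝ) ≤ c * ((N : ℝ) + 1) ^ ε) :
    AlmostLinear fun n G => ∃ (H : SimpleGraph (Fin n)) (X : Set (Fin n)),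
      oddPackingIn H Xᶜ ≤ κ (n + G.edgeSet.ncard) ∧
      (∀ (m : ℕ) (a b : Fin m → Fin n), IsInducedMatchingAt G Set.univ m a b →
        (∀ i, a i ∈ X ∨ b i ∈ X ∨ ¬ H.Adj (a i) (b i)) → m ≤ κ (n + G.edgeSet.ncard)) ∧
      {p : Fin n × Fin n | p.1 ∉ X ∧ p.2 ∉ X ∧ H.Adj p.1 p.2 ∧ ¬ G.Adj p.1 p.2}.ncard ≤
        κ (n + G.edgeSet.ncard) := by
  obtain ⟨P, T, hP, hT⟩ := odd_almostLinear hB (fun N => 3 * κ N) (by
    intro ε hε
    obtain ⟨c, hc⟩ := hκ ε hε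
    refine ⟨3 * c, fun N => ?_⟩
    push_cast
    rw [mul_assoc]
    exact mul_le_mul_of_nonneg_left (hc N) (by norm_num))
  refine ⟨P, T, hP.mono ?_ fun _ _ _ => le_rfl, hT⟩
  rintro n G ⟨H, X, h1, h2, h3⟩
  have h4 := near_bound G H Set.univ X (κ (n + G.edgeSet.ncard))
    (fun m a b hab _ h => h2 m a b hab h)
  have e1 : (Set.univ \ X : Set (Fin n)) = Xᶜ := by
    ext v
    simp
  have e2 : {p : Fin n × Fin n | p.1 ∈ Set.univ \ X ∧ p.2 ∈ Set.univ \ X ∧ H.Adj p.1 p.2 ∧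
      ¬ G.Adj p.1 p.2} = {p : Fin n × Fin n | p.1 ∉ X ∧ p.2 ∉ X ∧ H.Adj p.1 p.2 ∧
      ¬ G.Adj p.1 p.2} := by
    ext p
    simp
  rw [e2, e1, oddPackingIn_univ] at h4
  have h5 : Nat.sqrt (oddPackingIn H Xᶜ * {p : Fin n × Fin n | p.1 ∉ X ∧ p.2 ∉ X ∧
      H.Adj p.1 p.2 ∧ ¬ G.Adj p.1 p.2}.ncard) ≤ κ (n + G.edgeSet.ncard) := by
    refine (Nat.sqrt_le_sqrt (Nat.mul_le_mul h1 h3)).trans ?_
    rw [Nat.sqrt_eq]
  omega

theorem defect_apx (T : ℕ → ℕ → ℕ)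
    (hT : ∀ n n' m m', n ≤ n' → m ≤ m' → T n m ≤ T n' m')
    (hP : ∃ P, Solves P (fun _ G => G.IsBipartite) (fun n G => T n G.edgeSet.ncard)) :
    ∃ P C, SolvesUpTo P (fun _ G => defect G) (fun n G =>
      C * (T (2 * n) (2 * G.edgeSet.ncard) + n + G.edgeSet.ncard + 1)) := by
  obtain ⟨P, C, k, h⟩ := apx_reductionW T hT hP
  refine ⟨P, C, k, fun n G L => ?_⟩
  obtain ⟨t, s, M, h1, h2, h3, h4, h5⟩ := h n G L
  exact ⟨t, s, M, h1, h2, h3, fun M' hM' => (h4 M' hM').trans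
    (Nat.add_le_add_left (searches_le_defect G) _), h5⟩

/-- All sets equal: the defect is at most the induced matching number. -/
theorem defect_le_im (G : SimpleGraph (Fin n)) (U : Set (Fin n)) :
    defectIn G U ≤ inducedMatchingAt G U := by
  refine (defectIn_le ∅ (S := fun _ => Set.univ) fun _ => jo_univ).trans ?_
  have h1 : wild G U ∅ (fun _ => Set.univ) = ∅ := by
    ext p
    simp only [wild, Set.mem_ofPred_eq, Set.mem_empty_iff_false, iff_false]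
    rintro ⟨_, _, _, _, h | h⟩
    · exact Set.univ_nonempty.ne_empty (disjoint_self.1 h)
    · refine h (Or.inl ⟨?_, ?_⟩) <;>
      · rw [Set.sdiff_self]
        exact jo_empty
  rw [h1, Set.ncard_empty]
  exact meeting_le fun k a b h => h.at.le

end Vale.Agent.P305.H434
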