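import Vale.Agent.P305.R2.H434.Defs

/-! Statements of the modules. -/

set_option autoImplicit false

namespace Vale.Agent.P305.H434

/-- row A (file Quad.lean, theorem quad : StA) -/
def StA : Prop := ∀ A B C D : ℝ × ℝ, Disjoint (segment ℝ A B) (segment ℝ D C) →
  Disjoint (segment ℝ A D) (segment ℝ B C) →
  hh (B - A) (D - A) + hh (C - B) (A - B) + hh (D - C) (B - C) + hh (A - D) (C - D) = 1

/-- row B1 (file Vert.lean, theorem vert : StB1) -/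
def StB1 : Prop := ∀ E N W S : ℝ × ℝ, E ≠ 0 → N ≠ 0 → W ≠ 0 → S ≠ 0 →
  ¬ SameDir E N → ¬ SameDir W N → ¬ SameDir W S → ¬ SameDir E S →
  ub E + ub N + ub W + ub S + (hh E N + hh N W + hh W S + hh S E) = 1 →
  (CPos E W N ∧ CNeg E W S) ∨ (CNeg E W N ∧ CPos E W S)

/-- row B2 (file Cross.lean, theorem cross : StB2) -/
def StB2 : Prop := ∀ (a b : Set (ℝ × ℝ)) (v E N W S : ℝ × ℝ), Convex ℝ a → Convex ℝ b →
  v ∈ a → v ∈ b → v + N ∈ a → v + S ∈ a → v + E ∈ b → v + W ∈ b →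
  v + N ∉ b → v + S ∉ b → v + E ∉ a → v + W ∉ a →
  CPos E W N → CNeg E W S → ¬ NonCrossing a b

/-- row C1 (file Conn.lean, theorem conn : StC1) -/
def StC1 : Prop := ∀ a b : Set (ℝ × ℝ), Convex ℝ a → Convex ℝ b → IsPreconnected (a \ b) →
  NonCrossing a b

/-- row C2 (file Homot.lean, theorem homot : StC2) -/
def StC2 : Prop := ∀ (K : Set (ℝ × ℝ)) (x y : ℝ × ℝ) (r s : ℝ), Convex ℝ K → 0 ≤ r → 0 ≤ s →
  NonCrossing ((fun z => x + r • z) '' K) ((fun z => y + s • z) '' K)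

/-- row C3 (file Conn.lean, theorem half : StC3) -/
def StC3 : Prop := ∀ a b : Set (ℝ × ℝ), Convex ℝ a → Convex ℝ bᶜ → NonCrossing a b

/-- row D (file Main.lean, theorem main_geom : StD), from StA, StB1, StB2 -/
def StD : Prop := ∀ (s t : ℕ) [NeZero s] [NeZero t], Odd s → Odd t →
  ∀ (A : ZMod s → Set (ℝ × ℝ)) (B : ZMod t → Set (ℝ × ℝ)),
  (∀ i, Convex ℝ (A i)) → (∀ j, Convex ℝ (B j)) →
  (∀ i, Disjoint (A i) (A (i + 1))) → (∀ j, Disjoint (B j) (B (j + 1))) →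
  (∀ i j, (A i ∩ B j).Nonempty) → ∃ i j, ¬ NonCrossing (A i) (B j)

end Vale.Agent.P305.H434
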